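import Vale.Agent.P088.H607.K.Lim

/-!
# P088, theorem JB: the boundary step (row K_BD), the two sides of the energy estimate
-/

open MeasureTheory Set Filter
open scoped ContDiff Matrix Topology

noncomputable section

namespace Vale.Agent.P088.H607.K

open Vale.Agent.P088.LR Vale.Agent.P088.LR.B Vale.Agent.P088.LR.B.H43 Vale.Agent.P088.LR.U
  Vale.Agent.P088.LR.H158
open Vale.Agent.P088.LR.CF (sc)
open Vale.Agent.P088.LR.K (ze OT)

variable {n N : ℕ} {ρ : V n → ℝ} {Z : ℕ → ℝ} {p : V n}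

lemma ofReal_sm {f : V n → ℝ} (hf : ContDiff ℝ ∞ f) : ContDiff ℝ ∞ fun x => ((f x : ℝ) : ℂ) :=
  Complex.ofRealCLM.contDiff.comp hf

/-- The limits along a concentrating sequence. -/
structure Con (ρ : V n → ℝ) (Z : ℕ → ℝ) (p : V n) (m : ℕ) (ζ : Fin n → ℂ) (η : Fin N → ℂ)
    (u : ℕ → V n → Fin N → ℂ) : Prop where
  su : ∀ M, ContDiff ℝ ∞ (u M)
  h1 : ∀ a b, BL ρ Z p (fun x => ρ x ^ m) (fun M => pd a (u M)) (fun M => pd b (u M))
    (fun l l' => ζ a * star (ζ b) * (η l * star (η l')))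
  h2 : ∀ a b, BL ρ Z p (fun x => ρ x ^ m) (fun M => pd a (pd b (u M))) u
    (fun l l' => ζ a * ζ b * (η l * star (η l')))
  h3 : ∀ a, BL ρ Z p (fun x => ρ x ^ m) (fun M => pd a (u M)) u (fun _ _ => 0)
  h4 : BL ρ Z p (fun x => ρ x ^ m) u u (fun _ _ => 0)

/-- all first order expressions -/
lemma cdL (hρ : Dom ρ) {w : V n → ℝ} {P Q : ℕ → V n → Fin N → ℂ} {β : Fin N → Fin N → ℂ}
    {u : ℕ → V n → Fin N → ℂ} (hPQ : BL ρ Z p w P Q β) (hPu : BL ρ Z p w P u (fun _ _ => 0))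
    (hQu : BL ρ Z p w Q u (fun _ _ => 0)) (huu : BL ρ Z p w u u (fun _ _ => 0))
    {C D : MC n N} (hC : SmC C) (hD : SmC D) :
    BL ρ Z p w (fun M x => P M x + C x *ᵥ u M x) (fun M x => Q M x + D x *ᵥ u M x) β := by
  have huQ := hQu.swap hρ
  have a := hPQ.add_l hρ (huQ.mul_l hρ hC)
  have b := hPu.add_l hρ (huu.mul_l hρ hC)
  have c := ((a.swap hρ).add_l hρ ((b.swap hρ).mul_l hρ hD)).swap hρ
  refine c.of_eq fun l l' => ?_
  simp

/-- one slot with the function itself -/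
lemma cdu (hρ : Dom ρ) {w : V n → ℝ} {P : ℕ → V n → Fin N → ℂ} {β : Fin N → Fin N → ℂ}
    {u : ℕ → V n → Fin N → ℂ} (hPu : BL ρ Z p w P u β)
    (huu : BL ρ Z p w u u (fun _ _ => 0)) {C : MC n N} (hC : SmC C) :
    BL ρ Z p w (fun M x => P M x + C x *ᵥ u M x) u β := by
  refine (hPu.add_l hρ (huu.mul_l hρ hC)).of_eq fun l l' => ?_
  simp

/-- `⟨P, a u⟩` -/
lemma auR (hρ : Dom ρ) {w : V n → ℝ} {P : ℕ → V n → Fin N → ℂ} {β : Fin N → Fin N → ℂ}
    {u : ℕ → V n → Fin N → ℂ} (hPu : BL ρ Z p w P u β) {C : MC n N} (hC : SmC C) :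
    BL ρ Z p w P (fun M x => C x *ᵥ u M x) (fun l l' => ∑ k, star (C p l' k) * β l k) := by
  refine (((hPu.swap hρ).mul_l hρ hC).swap hρ).of_eq fun l l' => ?_
  simp only [star_sum, star_mul', star_star]

lemma smC_sub {C D : MC n N} (hC : SmC C) (hD : SmC D) : SmC fun x => C x - D x :=
  fun i j => (hC i j).sub (hD i j)

/-- sums of squares as dot products -/
lemma sq_dot (v : Fin N → ℂ) : ((∑ l, ‖v l‖ ^ 2 : ℝ) : ℂ) = v ⬝ᵥ star v := by
  simp only [dotProduct, Pi.star_apply]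
  push_cast
  refine Finset.sum_congr rfl fun l _ => ?_
  rw [show star (v l) = (starRingEnd ℂ) (v l) from rfl, Complex.mul_conj,
    Complex.normSq_eq_norm_sq]
  push_cast
  rfl

lemma nsq_sm {f : V n → ℂ} (hf : ContDiff ℝ ∞ f) : ContDiff ℝ ∞ fun x => ‖f x‖ ^ 2 :=
  hf.norm_sq ℝ

section key

variable {m : ℕ} {ν τ : V n} {η : Fin N → ℂ} {u : ℕ → V n → Fin N → ℂ}
  {σ : V n → ℝ} {t : MF n} {A₁ A : Cn n N}

/-- the integrand of the left side -/
def LF (σ : V n → ℝ) (t : MF n) (A₁ A : Cn n N) (u : ℕ → V n → Fin N → ℂ) (M : ℕ) (x : V n) :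
    ℂ :=
  ∑ i, ∑ j, ((t x i j - sc σ x i j : ℝ) : ℂ) * (cd A i (u M) x ⬝ᵥ star (cd A j (u M) x)) +
    ∑ i, ((σ x : ℝ) : ℂ) *
      (cd A₁ i (u M) x ⬝ᵥ star ((A i x - A₁ i x) *ᵥ u M x) +
        ((A i x - A₁ i x) *ᵥ u M x) ⬝ᵥ star (cd A₁ i (u M) x) +
        ((A i x - A₁ i x) *ᵥ u M x) ⬝ᵥ star ((A i x - A₁ i x) *ᵥ u M x))

/-- the integrand of the right side -/
def RF (ρ σ : V n → ℝ) (t : MF n) (A₁ A : Cn n N) (u : ℕ → V n → Fin N → ℂ) (M : ℕ) (x : V n) :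
    ℝ :=
  (∑ i, ∑ j, |t x i j - sc σ x i j| ^ 2) * ∑ j, ∑ l, ‖cd A₁ j (u M) x l‖ ^ 2 +
    (∑ i, ∑ α, ∑ β, ‖A i x α β - A₁ i x α β‖ ^ 2) *
      ((∑ l, ‖u M x l‖ ^ 2) + ρ x ^ 2 * ∑ j, ∑ l, ‖cd A₁ j (u M) x l‖ ^ 2)

lemma cd_split (i : Fin n) (v : V n → Fin N → ℂ) (x : V n) :
    cd A i v x = cd A₁ i v x + (A i x - A₁ i x) *ᵥ v x := by
  simp only [cd, Matrix.sub_mulVec]
  abel

lemma sum_sc (x : V n) (X : Fin n → Fin n → ℂ) :
    ∑ i, ∑ j, ((sc σ x i j : ℝ) : ℂ) * X i j = ∑ i, ((σ x : ℝ) : ℂ) * X i i := by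
  refine Finset.sum_congr rfl fun i _ => ?_
  rw [Finset.sum_eq_single i]
  · simp [sc]
  · intro j _ hj
    simp [sc, Ne.symm hj]
  · intro h
    exact absurd (Finset.mem_univ i) h

/-- the left side is the integral of `LF` -/
lemma ea_diff (hρ : Dom ρ) (hσ : ContDiff ℝ ∞ σ) (ht : SmM t) (hA₁ : SmU A₁) (hA : SmU A)
    (hu : ∀ M, ContDiff ℝ ∞ (u M)) (M : ℕ) :
    ea (Om ρ) t A (u M) (u M) - ea (Om ρ) (sc σ) A₁ (u M) (u M) =
      ∫ x in Om ρ, LF σ t A₁ A u M x := by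
  have cdc : ∀ {B : Cn n N}, SmU B → ∀ i, ContDiff ℝ ∞ (cd B i (u M)) := fun hB i =>
    contDiff_cd hB (hu M) i
  have dotc : ∀ {B : Cn n N}, SmU B → ∀ i j,
      Continuous fun x => cd B i (u M) x ⬝ᵥ star (cd B j (u M) x) := by
    intro B hB i j
    simp only [dotProduct, Pi.star_apply]
    exact continuous_finsetSum _ fun l _ => ((contDiff_pi.1 (cdc hB i)) l).continuous.mul
      (contDiff_star ((contDiff_pi.1 (cdc hB j)) l)).continuous
  have hsc : ∀ i j, Continuous fun x => sc σ x i j := fun i j => by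
    have : (fun x => sc σ x i j) = fun x => σ x * (1 : Matrix (Fin n) (Fin n) ℝ) i j := by
      funext x
      simp [sc]
    rw [this]
    exact hσ.continuous.mul continuous_const
  unfold ea
  rw [← integral_sub]
  · refine integral_congr_ae (Eventually.of_forall fun x => ?_)
    show (∑ i, ∑ j, (t x i j : ℂ) * (cd A i (u M) x ⬝ᵥ star (cd A j (u M) x))) -
      (∑ i, ∑ j, (sc σ x i j : ℂ) * (cd A₁ i (u M) x ⬝ᵥ star (cd A₁ j (u M) x))) =
      LF σ t A₁ A u M x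
    unfold LF
    have e1 : ∑ i, ∑ j, (t x i j : ℂ) * (cd A i (u M) x ⬝ᵥ star (cd A j (u M) x)) =
        ∑ i, ∑ j, ((t x i j - sc σ x i j : ℝ) : ℂ) *
          (cd A i (u M) x ⬝ᵥ star (cd A j (u M) x)) +
        ∑ i, ((σ x : ℝ) : ℂ) * (cd A i (u M) x ⬝ᵥ star (cd A i (u M) x)) := by
      rw [← sum_sc (σ := σ) x fun i j => cd A i (u M) x ⬝ᵥ star (cd A j (u M) x),
        ← Finset.sum_add_distrib]
      refine Finset.sum_congr rfl fun i _ => ?_
      rw [← Finset.sum_add_distrib]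
      refine Finset.sum_congr rfl fun j _ => ?_
      push_cast
      ring
    rw [e1, sum_sc (σ := σ) x fun i j => cd A₁ i (u M) x ⬝ᵥ star (cd A₁ j (u M) x),
      add_sub_assoc, ← Finset.sum_sub_distrib]
    congr 1
    refine Finset.sum_congr rfl fun i _ => ?_
    rw [cd_split (A := A) (A₁ := A₁) i (u M) x, star_add, add_dotProduct, dotProduct_add,
      dotProduct_add]
    ring
  · exact om_int hρ (continuous_finsetSum _ fun i _ => continuous_finsetSum _ fun j _ =>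
      (Complex.continuous_ofReal.comp (ht i j).continuous).mul (dotc hA i j))
  · exact om_int hρ (continuous_finsetSum _ fun i _ => continuous_finsetSum _ fun j _ =>
      (Complex.continuous_ofReal.comp (hsc i j)).mul (dotc hA₁ i j))

/-- comparison of the two sides -/
lemma cmp {Λ r : ℂ} {C : ℝ} {E : ℕ → V n → ℝ} {L : ℕ → V n → ℂ}
    (hL : Lm ρ Z L Λ) (hR : Lm ρ Z (fun M x => ((E M x : ℝ) : ℂ)) r)
    (h : ∀ M, ‖∫ x in Om ρ, L M x‖ ≤ C * ∫ x in Om ρ, E M x) (hE : ∀ M x, 0 ≤ E M x) :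
    ‖Λ‖ ≤ C * ‖r‖ := by
  refine le_of_tendsto_of_tendsto' hL.2.norm (hR.2.norm.const_mul C) fun M => ?_
  have h1 : ∫ x in Om ρ, ((E M x : ℝ) : ℂ) = ((∫ x in Om ρ, E M x : ℝ) : ℂ) := integral_ofReal
  rw [h1, norm_mul, norm_mul, Complex.norm_real,
    Real.norm_of_nonneg (integral_nonneg fun x => hE M x)]
  have h9 := mul_le_mul_of_nonneg_left (h M) (norm_nonneg (((Z M : ℝ) : ℂ)⁻¹))
  linarith

lemma RF_nonneg (M : ℕ) (x : V n) : 0 ≤ RF ρ σ t A₁ A u M x := by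
  unfold RF
  positivity

lemma RF_cast (M : ℕ) (x : V n) : ((RF ρ σ t A₁ A u M x : ℝ) : ℂ) =
    (((∑ i, ∑ j, |t x i j - sc σ x i j| ^ 2 : ℝ)) : ℂ) *
      ∑ j, cd A₁ j (u M) x ⬝ᵥ star (cd A₁ j (u M) x) +
    ((∑ i, ∑ α, ∑ β, ‖A i x α β - A₁ i x α β‖ ^ 2 : ℝ) : ℂ) *
      (u M x ⬝ᵥ star (u M x) +
        ((ρ x ^ 2 : ℝ) : ℂ) * ∑ j, cd A₁ j (u M) x ⬝ᵥ star (cd A₁ j (u M) x)) := by
  unfold RF
  have h1 : ((∑ j, ∑ l, ‖cd A₁ j (u M) x l‖ ^ 2 : ℝ) : ℂ) =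
      ∑ j, cd A₁ j (u M) x ⬝ᵥ star (cd A₁ j (u M) x) := by
    rw [Complex.ofReal_sum]
    exact Finset.sum_congr rfl fun j _ => sq_dot _
  rw [Complex.ofReal_add, Complex.ofReal_mul, Complex.ofReal_mul, Complex.ofReal_add,
    Complex.ofReal_mul, h1, sq_dot]

/-- `θ = - 2 / ((k + 1) c)` -/
def th (k : ℕ) (c : ℝ) : ℂ := -(((k : ℂ) + 1) * c)⁻¹ * 2

lemma th_real (k : ℕ) (c : ℝ) : star (th k c) = th k c := by
  have : th k c = (((-(((k : ℝ) + 1) * c)⁻¹ * 2 : ℝ)) : ℂ) := by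
    unfold th
    push_cast
    ring
  rw [this]
  exact Complex.conj_ofReal _

/-- `⟨η, a_i η⟩` -/
def gq (η : Fin N → ℂ) (B : Matrix (Fin N) (Fin N) ℂ) : ℂ := η ⬝ᵥ star (B *ᵥ η)

lemma gq_sum (η : Fin N → ℂ) (B : Matrix (Fin N) (Fin N) ℂ) (θ : ℂ) :
    ∑ l, ∑ k, star (B l k) * (θ * (η l * star (η k))) = θ * gq η B := by
  unfold gq
  simp only [dotProduct, Pi.star_apply, Matrix.mulVec, star_sum, star_mul', Finset.mul_sum]
  exact Finset.sum_congr rfl fun l _ => Finset.sum_congr rfl fun k _ => by ring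

lemma ze_add (ν τ : V n) (j : Fin n) : ze ν τ j + star (ze ν τ j) = 2 * (ν j : ℂ) := by
  have h1 : star ((ν j : ℝ) : ℂ) = ((ν j : ℝ) : ℂ) := Complex.conj_ofReal _
  have h2 : star ((τ j : ℝ) : ℂ) = ((τ j : ℝ) : ℂ) := Complex.conj_ofReal _
  have h3 : star Complex.I = -Complex.I := Complex.conj_I
  simp only [ze, star_add, star_mul', h1, h2, h3]
  ring

lemma ze_sub (ν τ : V n) (j : Fin n) :
    ze ν τ j - star (ze ν τ j) = 2 * Complex.I * (τ j : ℂ) := by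
  have h1 : star ((ν j : ℝ) : ℂ) = ((ν j : ℝ) : ℂ) := Complex.conj_ofReal _
  have h2 : star ((τ j : ℝ) : ℂ) = ((τ j : ℝ) : ℂ) := Complex.conj_ofReal _
  have h3 : star Complex.I = -Complex.I := Complex.conj_I
  simp only [ze, star_add, star_mul', h1, h2, h3]
  ring

/-- weight `ρ^k`, one derivative -/
lemma D1 (hρ : Dom ρ) {k : ℕ} {c : ℝ} (hc : 0 < c) (hν1 : ∑ i, ν i ^ 2 = 1) (hp : ρ p = 0)
    (hν : ∀ i, pd i ρ p = c * ν i) (h : Con ρ Z p (k + 1) (ze ν τ) η u) (i : Fin n) :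
    BL ρ Z p (fun x => ρ x ^ k) (fun M => pd i (u M)) u
      (fun l l' => th k c * ze ν τ i * (η l * star (η l'))) := by
  refine (ibpL hρ hc hν1 hp hν k (fun M => H158.contDiff_pd (h.su M) i) h.su (h.h3 i)
    (fun j => h.h2 j i) (fun j => h.h1 i j)).of_eq fun l l' => ?_
  have h1 : ∀ j, (ν j : ℂ) * (ze ν τ j * ze ν τ i * (η l * star (η l')) +
      ze ν τ i * star (ze ν τ j) * (η l * star (η l'))) =
      (ν j : ℂ) ^ 2 * (2 * ze ν τ i * (η l * star (η l'))) := by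
    intro j
    have := ze_add ν τ j
    linear_combination ((ν j : ℂ) * ze ν τ i * (η l * star (η l'))) * this
  simp only [h1]
  rw [← Finset.sum_mul]
  have h2 : ∑ j, (ν j : ℂ) ^ 2 = 1 := by exact_mod_cast congrArg (fun r : ℝ => (r : ℂ)) hν1
  rw [h2]
  unfold th
  ring

/-- weight `ρ^k`, no derivative -/
lemma D2 (hρ : Dom ρ) {k : ℕ} {c : ℝ} (hc : 0 < c) (hν1 : ∑ i, ν i ^ 2 = 1) (hp : ρ p = 0)
    (hν : ∀ i, pd i ρ p = c * ν i) (h : Con ρ Z p (k + 1) (ze ν τ) η u) :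
    BL ρ Z p (fun x => ρ x ^ k) u u (fun _ _ => 0) := by
  refine (ibpL hρ hc hν1 hp hν k h.su h.su h.h4 h.h3
    (fun j => (h.h3 j).swap hρ)).of_eq fun l l' => ?_
  simp

/-- **The limit, order `k + 1`.** -/
lemma keyS (hρ : Dom ρ) {k : ℕ} {c : ℝ} (hc : 0 < c) (hν1 : ∑ i, ν i ^ 2 = 1) (hp : ρ p = 0)
    (hν : ∀ i, pd i ρ p = c * ν i) (h : Con ρ Z p (k + 1) (ze ν τ) η u)
    (hσ : ContDiff ℝ ∞ σ) (hA₁ : SmU A₁) (hA : SmU A)
    {b : Fin n → Fin n → V n → ℝ} {a : Fin n → MC n N} (hb : ∀ i j, ContDiff ℝ ∞ (b i j))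
    (ha : ∀ i, SmC (a i)) (eb : ∀ i j x, t x i j - sc σ x i j = ρ x ^ (k + 1) * b i j x)
    (ea : ∀ i x, ((ρ x : ℝ) : ℂ) • (A i x - A₁ i x) = ((ρ x ^ (k + 1) : ℝ) : ℂ) • a i x)
    {C : ℝ}
    (hen : ∀ M, ‖∫ x in Om ρ, LF σ t A₁ A u M x‖ ≤ C * ∫ x in Om ρ, RF ρ σ t A₁ A u M x) :
    (∑ i, ∑ j, ((b i j p : ℝ) : ℂ) * (ze ν τ i * star (ze ν τ j))) * (η ⬝ᵥ star η) +
      ((σ p : ℝ) : ℂ) * ∑ i, (th k c * ze ν τ i * gq η (a i p) +
        star (th k c * ze ν τ i * gq η (a i p))) = 0 := by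
  have d1 := D1 hρ hc hν1 hp hν h
  have d2 := D2 hρ hc hν1 hp hν h
  have hα : ∀ i, ∀ x ∈ Om ρ, A i x - A₁ i x = ((ρ x ^ k : ℝ) : ℂ) • a i x := by
    intro i x hx
    have hx' : ((ρ x : ℝ) : ℂ) ≠ 0 := by
      have : 0 < ρ x := hx
      exact_mod_cast this.ne'
    have h1 := ea i x
    have h2 : ((ρ x ^ (k + 1) : ℝ) : ℂ) • a i x =
        ((ρ x : ℝ) : ℂ) • (((ρ x ^ k : ℝ) : ℂ) • a i x) := by
      rw [smul_smul]
      congr 1
      push_cast
      ring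
    rw [h2] at h1
    exact smul_right_injective _ hx' h1
  have E1 : ∀ i j, BL ρ Z p (fun x => ρ x ^ (k + 1)) (fun M => cd A i (u M))
      (fun M => cd A j (u M)) (fun l l' => ze ν τ i * star (ze ν τ j) * (η l * star (η l'))) :=
    fun i j => cdL hρ (h.h1 i j) (h.h3 i) (h.h3 j) h.h4 (hA.1 i) (hA.1 j)
  have E2 : ∀ j, BL ρ Z p (fun x => ρ x ^ (k + 1)) (fun M => cd A₁ j (u M))
      (fun M => cd A₁ j (u M)) (fun l l' => ze ν τ j * star (ze ν τ j) * (η l * star (η l'))) :=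
    fun j => cdL hρ (h.h1 j j) (h.h3 j) (h.h3 j) h.h4 (hA₁.1 j) (hA₁.1 j)
  have X : ∀ i, BL ρ Z p (fun x => ρ x ^ k) (fun M => cd A₁ i (u M))
      (fun M x => a i x *ᵥ u M x)
      (fun l l' => ∑ r, star (a i p l' r) * (th k c * ze ν τ i * (η l * star (η r)))) :=
    fun i => auR hρ (cdu hρ (d1 i) d2 (hA₁.1 i)) (ha i)
  have Y : ∀ i, BL ρ Z p (fun x => ρ x ^ k) (fun M x => a i x *ᵥ u M x)
      (fun M x => a i x *ᵥ u M x) (fun _ _ => 0) := fun i =>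
    (auR hρ (d2.mul_l hρ (ha i)) (ha i)).of_eq fun l l' => by simp
  -- left side
  have T1 := Lm.sum fun i => Lm.sum fun j => (E1 i j).dot hρ (ofReal_sm (hb i j))
  have T2 := fun i => (X i).dot hρ (ofReal_sm hσ)
  have T3 := fun i => ((X i).swap hρ).dot hρ (ofReal_sm hσ)
  have T4 := fun i => (Y i).dot hρ (ofReal_sm (hσ.mul (hρ.sm.pow k)))
  have T := T1.add (Lm.sum fun i => ((T2 i).add (T3 i)).add (T4 i))
  have T' := T.congr hρ (g' := LF σ t A₁ A u) (fun M x hx => by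
    unfold LF
    congr 1
    · refine Finset.sum_congr rfl fun i _ => Finset.sum_congr rfl fun j _ => ?_
      rw [eb i j x]
      push_cast
      ring
    · refine Finset.sum_congr rfl fun i _ => ?_
      have hst : star ((ρ x ^ k : ℝ) : ℂ) = ((ρ x ^ k : ℝ) : ℂ) := Complex.conj_ofReal _
      rw [hα i x hx, Matrix.smul_mulVec, star_smul, hst]
      simp only [dotProduct_smul, smul_dotProduct, smul_eq_mul]
      push_cast
      ring)
  -- right side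
  set B : V n → ℝ := fun x => ∑ i, ∑ j, b i j x ^ 2 with hB
  have hBs : ContDiff ℝ ∞ B := ContDiff.sum fun i _ => ContDiff.sum fun j _ => (hb i j).pow 2
  set a2 : V n → ℝ := fun x => ∑ i, ∑ α, ∑ β, ‖a i x α β‖ ^ 2 with ha2
  have ha2s : ContDiff ℝ ∞ a2 := ContDiff.sum fun i _ => ContDiff.sum fun α _ =>
    ContDiff.sum fun β _ => nsq_sm (ha i α β)
  have U1 := Lm.sum fun j => (E2 j).dot hρ (ofReal_sm ((hρ.sm.pow (k + 1)).mul hBs))
  have U2 := d2.dot hρ (ofReal_sm ((hρ.sm.pow k).mul ha2s))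
  have U3 := Lm.sum fun j => (E2 j).dot hρ (ofReal_sm ((hρ.sm.pow (k + 1)).mul ha2s))
  have U := U1.add (U2.add U3)
  have U' := U.congr hρ (g' := fun M x => ((RF ρ σ t A₁ A u M x : ℝ) : ℂ)) (fun M x hx => by
    rw [RF_cast]
    have s1 : ∑ i, ∑ j, |t x i j - sc σ x i j| ^ 2 = ρ x ^ (k + 1) * (ρ x ^ (k + 1) * B x) := by
      simp only [eb, hB, Finset.mul_sum, sq_abs]
      exact Finset.sum_congr rfl fun i _ => Finset.sum_congr rfl fun j _ => by ring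
    have s2 : ∑ i, ∑ α, ∑ β, ‖A i x α β - A₁ i x α β‖ ^ 2 = ρ x ^ k * (ρ x ^ k * a2 x) := by
      simp only [ha2, Finset.mul_sum]
      refine Finset.sum_congr rfl fun i _ => Finset.sum_congr rfl fun α _ =>
        Finset.sum_congr rfl fun β _ => ?_
      have h1 : A i x α β - A₁ i x α β = ((ρ x ^ k : ℝ) : ℂ) * a i x α β := by
        have := congrFun (congrFun (hα i x hx) α) β
        simpa using this
      rw [h1, norm_mul, Complex.norm_real, mul_pow, Real.norm_eq_abs, sq_abs]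
      ring
    rw [s1, s2]
    simp only [← Finset.mul_sum]
    push_cast
    ring)
  have hr : (∑ j, ((((ρ p ^ (k + 1) * B p : ℝ)) : ℂ) *
      ∑ l, ze ν τ j * star (ze ν τ j) * (η l * star (η l)))) +
      ((((ρ p ^ k * a2 p : ℝ)) : ℂ) * ∑ _l : Fin N, (0 : ℂ) +
        ∑ j, ((((ρ p ^ (k + 1) * a2 p : ℝ)) : ℂ) *
          ∑ l, ze ν τ j * star (ze ν τ j) * (η l * star (η l)))) = 0 := by
    simp [hp]
  have U'' : Lm ρ Z (fun M x => ((RF ρ σ t A₁ A u M x : ℝ) : ℂ)) 0 := hr ▸ U'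
  have hfin := cmp T' U'' hen (fun M x => RF_nonneg M x)
  rw [norm_zero, mul_zero] at hfin
  have h0 := norm_le_zero_iff.1 hfin
  rw [← h0]
  congr 1
  · simp only [dotProduct, Pi.star_apply, Finset.sum_mul]
    refine Finset.sum_congr rfl fun i _ => Finset.sum_congr rfl fun j _ => ?_
    rw [← Finset.mul_sum]
    ring
  · rw [Finset.mul_sum]
    refine Finset.sum_congr rfl fun i _ => ?_
    have g1 : ∑ l, ∑ r, star (a i p l r) * (th k c * ze ν τ i * (η l * star (η r))) =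
        th k c * ze ν τ i * gq η (a i p) := gq_sum η (a i p) _
    have g2 : ∑ l, star (∑ r, star (a i p l r) * (th k c * ze ν τ i * (η l * star (η r)))) =
        star (th k c * ze ν τ i * gq η (a i p)) := by
      rw [← g1, star_sum]
    rw [g1, g2]
    simp
    ring

/-- **The limit, order `0`.** -/
lemma key0 (hρ : Dom ρ) (hp : ρ p = 0) (h : Con ρ Z p 0 (ze ν τ) η u)
    (hσ : ContDiff ℝ ∞ σ) (hA₁ : SmU A₁) (hA : SmU A)
    {b : Fin n → Fin n → V n → ℝ} (hb : ∀ i j, ContDiff ℝ ∞ (b i j))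
    (eb : ∀ i j x, t x i j - sc σ x i j = b i j x) {C : ℝ}
    (hen : ∀ M, ‖∫ x in Om ρ, LF σ t A₁ A u M x‖ ≤ C * ∫ x in Om ρ, RF ρ σ t A₁ A u M x) :
    ‖(∑ i, ∑ j, ((b i j p : ℝ) : ℂ) * (ze ν τ i * star (ze ν τ j))) * (η ⬝ᵥ star η)‖ ≤
      C * ‖(((∑ i, ∑ j, b i j p ^ 2 : ℝ)) : ℂ) * (∑ j, ze ν τ j * star (ze ν τ j)) *
        (η ⬝ᵥ star η)‖ := by
  have hα : ∀ i, SmC fun x => A i x - A₁ i x := fun i => smC_sub (hA.1 i) (hA₁.1 i)
  have E1 : ∀ i j, BL ρ Z p (fun x => ρ x ^ 0) (fun M => cd A i (u M))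
      (fun M => cd A j (u M)) (fun l l' => ze ν τ i * star (ze ν τ j) * (η l * star (η l'))) :=
    fun i j => cdL hρ (h.h1 i j) (h.h3 i) (h.h3 j) h.h4 (hA.1 i) (hA.1 j)
  have E2 : ∀ j, BL ρ Z p (fun x => ρ x ^ 0) (fun M => cd A₁ j (u M))
      (fun M => cd A₁ j (u M)) (fun l l' => ze ν τ j * star (ze ν τ j) * (η l * star (η l'))) :=
    fun j => cdL hρ (h.h1 j j) (h.h3 j) (h.h3 j) h.h4 (hA₁.1 j) (hA₁.1 j)
  have X : ∀ i, BL ρ Z p (fun x => ρ x ^ 0) (fun M => cd A₁ i (u M))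
      (fun M x => (A i x - A₁ i x) *ᵥ u M x) (fun _ _ => 0) :=
    fun i => (auR hρ (cdu hρ (h.h3 i) h.h4 (hA₁.1 i)) (hα i)).of_eq fun l l' => by simp
  have Y : ∀ i, BL ρ Z p (fun x => ρ x ^ 0) (fun M x => (A i x - A₁ i x) *ᵥ u M x)
      (fun M x => (A i x - A₁ i x) *ᵥ u M x) (fun _ _ => 0) := fun i =>
    (auR hρ (h.h4.mul_l hρ (hα i)) (hα i)).of_eq fun l l' => by simp
  have T1 := Lm.sum fun i => Lm.sum fun j => (E1 i j).dot hρ (ofReal_sm (hb i j))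
  have T2 := fun i => (X i).dot hρ (ofReal_sm hσ)
  have T3 := fun i => ((X i).swap hρ).dot hρ (ofReal_sm hσ)
  have T4 := fun i => (Y i).dot hρ (ofReal_sm hσ)
  have T := T1.add (Lm.sum fun i => ((T2 i).add (T3 i)).add (T4 i))
  have T' := T.congr hρ (g' := LF σ t A₁ A u) (fun M x hx => by
    unfold LF
    congr 1
    · refine Finset.sum_congr rfl fun i _ => Finset.sum_congr rfl fun j _ => ?_
      rw [eb i j x, pow_zero]
      push_cast
      ring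
    · refine Finset.sum_congr rfl fun i _ => ?_
      rw [pow_zero]
      push_cast
      ring)
  set B : V n → ℝ := fun x => ∑ i, ∑ j, b i j x ^ 2 with hB
  have hBs : ContDiff ℝ ∞ B := ContDiff.sum fun i _ => ContDiff.sum fun j _ => (hb i j).pow 2
  set a2 : V n → ℝ := fun x => ∑ i, ∑ α, ∑ β, ‖A i x α β - A₁ i x α β‖ ^ 2 with ha2
  have ha2s : ContDiff ℝ ∞ a2 := ContDiff.sum fun i _ => ContDiff.sum fun α _ =>
    ContDiff.sum fun β _ => nsq_sm ((hA.1 i α β).sub (hA₁.1 i α β))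
  have U1 := Lm.sum fun j => (E2 j).dot hρ (ofReal_sm hBs)
  have U2 := h.h4.dot hρ (ofReal_sm ha2s)
  have U3 := Lm.sum fun j => (E2 j).dot hρ (ofReal_sm (ha2s.mul (hρ.sm.pow 2)))
  have U := U1.add (U2.add U3)
  have U' := U.congr hρ (g' := fun M x => ((RF ρ σ t A₁ A u M x : ℝ) : ℂ)) (fun M x hx => by
    rw [RF_cast]
    have s1 : ∑ i, ∑ j, |t x i j - sc σ x i j| ^ 2 = B x := by
      simp only [eb, hB, sq_abs]
    rw [s1]
    simp only [← Finset.mul_sum, ha2]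
    push_cast
    ring)
  have hfin := cmp T' U' hen (fun M x => RF_nonneg M x)
  refine le_of_eq_of_le ?_ (hfin.trans (le_of_eq ?_))
  · congr 1
    simp only [mul_zero, Finset.sum_const_zero, add_zero, star_zero, dotProduct, Pi.star_apply,
      Finset.sum_mul]
    refine Finset.sum_congr rfl fun i _ => Finset.sum_congr rfl fun j _ => ?_
    rw [← Finset.mul_sum]
    ring
  · congr 2
    simp only [mul_zero, Finset.sum_const_zero, zero_add, hp, dotProduct, Pi.star_apply]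
    have e1 : ∀ j, ((B p : ℝ) : ℂ) * ∑ l, ze ν τ j * star (ze ν τ j) * (η l * star (η l)) =
        ((B p : ℝ) : ℂ) * (ze ν τ j * star (ze ν τ j)) * ∑ l, η l * star (η l) := by
      intro j
      rw [← Finset.mul_sum]
      ring
    simp only [e1]
    rw [← Finset.sum_mul, ← Finset.mul_sum]
    simp [hB]

end key

end Vale.Agent.P088.H607.K
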