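import Vale.Agent.P088.H607.K.Bd

/-!
# P088, theorem JB: the boundary step (row K_BD)
-/

open MeasureTheory Set Filter
open scoped ContDiff Matrix Topology

noncomputable section

namespace Vale.Agent.P088.H607.K

open Vale.Agent.P088.LR Vale.Agent.P088.LR.B Vale.Agent.P088.LR.B.H43 Vale.Agent.P088.LR.U
  Vale.Agent.P088.LR.H158
open Vale.Agent.P088.LR.CF (sc)
open Vale.Agent.P088.LR.K (ze OT)

variable {n N : ℕ} {ρ : V n → ℝ} {Z : ℕ → ℝ} {p : V n}

/-! ### algebra -/

lemma gq_add (η θ : Fin N → ℂ) (B : Matrix (Fin N) (Fin N) ℂ) :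
    gq (η + θ) B = gq η B + gq θ B + (η ⬝ᵥ star (B *ᵥ θ) + θ ⬝ᵥ star (B *ᵥ η)) := by
  unfold gq
  rw [Matrix.mulVec_add, star_add, add_dotProduct, dotProduct_add, dotProduct_add]
  ring

lemma herm_zero {B : Matrix (Fin N) (Fin N) ℂ} (h : ∀ η : Fin N → ℂ, gq η B = 0) : B = 0 := by
  have h1 : ∀ η θ : Fin N → ℂ, η ⬝ᵥ star (B *ᵥ θ) + θ ⬝ᵥ star (B *ᵥ η) = 0 := by
    intro η θ
    have := gq_add η θ B
    rw [h, h, h, add_zero, zero_add] at this
    exact this.symm
  have hI : star Complex.I = -Complex.I := Complex.conj_I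
  have h2 : ∀ η θ : Fin N → ℂ, η ⬝ᵥ star (B *ᵥ θ) = 0 := by
    intro η θ
    have e1 := h1 η θ
    have e2 := h1 η (Complex.I • θ)
    rw [Matrix.mulVec_smul, star_smul, hI, dotProduct_smul, smul_dotProduct, smul_eq_mul,
      smul_eq_mul] at e2
    have e3 : Complex.I * (θ ⬝ᵥ star (B *ᵥ η) - η ⬝ᵥ star (B *ᵥ θ)) = 0 := by
      linear_combination e2
    have e4 := (mul_eq_zero.1 e3).resolve_left Complex.I_ne_zero
    have e5 : 2 * (η ⬝ᵥ star (B *ᵥ θ)) = 0 := by linear_combination e1 - e4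
    exact (mul_eq_zero.1 e5).resolve_left two_ne_zero
  ext l k
  have h3 := h2 (Pi.single l 1) (Pi.single k 1)
  rw [Matrix.mulVec_single_one, single_one_dotProduct] at h3
  have h4 : star (B l k) = 0 := h3
  simpa using h4

lemma gq_lin {ι : Type*} (s : Finset ι) (c : ι → ℝ) (B : ι → Matrix (Fin N) (Fin N) ℂ)
    (η : Fin N → ℂ) : gq η (∑ i ∈ s, ((c i : ℝ) : ℂ) • B i) =
      ∑ i ∈ s, ((c i : ℝ) : ℂ) * gq η (B i) := by
  unfold gq
  rw [Matrix.sum_mulVec, star_sum, dotProduct_sum]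
  refine Finset.sum_congr rfl fun i _ => ?_
  have h1 : star ((c i : ℝ) : ℂ) = ((c i : ℝ) : ℂ) := Complex.conj_ofReal _
  rw [Matrix.smul_mulVec, star_smul, h1, dotProduct_smul, smul_eq_mul]

lemma alg_a {ν : V n} (hν : ∑ i, ν i ^ 2 = 1) {a : Fin n → Matrix (Fin N) (Fin N) ℂ}
    (h0 : ∑ i, ((ν i : ℝ) : ℂ) • a i = 0)
    (h : ∀ τ : V n, ∑ i, τ i ^ 2 = 1 → ∑ i, ν i * τ i = 0 → ∀ η : Fin N → ℂ,
      ∑ i, ((τ i : ℝ) : ℂ) * gq η (a i) = 0) : ∀ i, a i = 0 := by
  intro i₀
  have h1 : ∀ τ : V n, ∑ i, τ i ^ 2 = 1 → ∑ i, ν i * τ i = 0 →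
      ∑ i, ((τ i : ℝ) : ℂ) • a i = 0 := by
    intro τ h2 h3
    exact herm_zero fun η => by rw [gq_lin]; exact h τ h2 h3 η
  -- the tangential part of `e_{i₀}`
  set v : V n := fun i => (if i = i₀ then 1 else 0) - ν i₀ * ν i with hv
  have hv0 : ∑ i, ν i * v i = 0 := by
    simp only [hv, mul_sub, Finset.sum_sub_distrib]
    have e1 : ∑ i, ν i * (if i = i₀ then (1 : ℝ) else 0) = ν i₀ := by simp
    have e2 : ∑ i, ν i * (ν i₀ * ν i) = ν i₀ * ∑ i, ν i ^ 2 := by
      rw [Finset.mul_sum]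
      exact Finset.sum_congr rfl fun i _ => by ring
    rw [e1, e2, hν, mul_one, sub_self]
  have hva : ∑ i, ((v i : ℝ) : ℂ) • a i = 0 := by
    set s : ℝ := ∑ i, v i ^ 2 with hs
    have hs0 : 0 ≤ s := Finset.sum_nonneg fun i _ => sq_nonneg _
    rcases hs0.eq_or_lt with h2 | h2
    · have h3 : ∀ i, v i = 0 := fun i => pow_eq_zero_iff two_ne_zero |>.1
        ((Finset.sum_eq_zero_iff_of_nonneg fun i _ => sq_nonneg (v i)).1 h2.symm i
          (Finset.mem_univ i))
      exact Finset.sum_eq_zero fun i _ => by rw [h3 i]; simp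
    · have hr : 0 < √s := Real.sqrt_pos.2 h2
      have h3 := h1 (fun i => v i / √s) (by
        have : ∑ i, (v i / √s) ^ 2 = s / √s ^ 2 := by
          rw [hs, Finset.sum_div]
          exact Finset.sum_congr rfl fun i _ => by rw [div_pow]
        rw [this, Real.sq_sqrt hs0, div_self h2.ne']) (by
        have : ∑ i, ν i * (v i / √s) = (∑ i, ν i * v i) / √s := by
          rw [Finset.sum_div]
          exact Finset.sum_congr rfl fun i _ => by ring
        rw [this, hv0, zero_div])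
      have h4 : ∑ i, ((v i : ℝ) : ℂ) • a i =
          ((√s : ℝ) : ℂ) • ∑ i, ((v i / √s : ℝ) : ℂ) • a i := by
        rw [Finset.smul_sum]
        refine Finset.sum_congr rfl fun i _ => ?_
        rw [smul_smul, ← Complex.ofReal_mul]
        congr 2
        field_simp
      rw [h4, h3, smul_zero]
  have h5 : a i₀ = ∑ i, ((v i : ℝ) : ℂ) • a i + ((ν i₀ : ℝ) : ℂ) •
      ∑ i, ((ν i : ℝ) : ℂ) • a i := by
    rw [Finset.smul_sum, ← Finset.sum_add_distrib]
    have e1 : ∀ i, ((v i : ℝ) : ℂ) • a i + ((ν i₀ : ℝ) : ℂ) • ((ν i : ℝ) : ℂ) • a i =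
        if i = i₀ then a i else 0 := by
      intro i
      rw [smul_smul, ← add_smul]
      simp only [hv]
      by_cases hi : i = i₀
      · simp only [hi, if_true]
        push_cast
        rw [sub_add_cancel, one_smul]
      · simp only [hi, if_false]
        push_cast
        rw [zero_sub, neg_add_cancel, zero_smul]
    simp only [e1]
    simp
  rw [h5, hva, h0, smul_zero, add_zero]

lemma gq_anti {B : Matrix (Fin N) (Fin N) ℂ} (hB : ∀ α β, star (B β α) = -B α β)
    (η : Fin N → ℂ) : star (gq η B) = -gq η B := by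
  have h1 := gq_sum η B 1
  rw [one_mul] at h1
  have h2 : star (gq η B) = ∑ l, ∑ k, B l k * (star (η l) * η k) := by
    rw [← h1]
    simp only [star_sum, star_mul', star_star, one_mul]
  rw [h2, Finset.sum_comm, ← h1, ← Finset.sum_neg_distrib]
  refine Finset.sum_congr rfl fun l _ => ?_
  rw [← Finset.sum_neg_distrib]
  refine Finset.sum_congr rfl fun k _ => ?_
  rw [hB k l]
  ring

/-! ### the row -/

section row

variable {m : ℕ} {ν τ : V n} {η : Fin N → ℂ} {u : ℕ → V n → Fin N → ℂ}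
  {σ : V n → ℝ} {t : MF n} {A₁ A : Cn n N}

lemma ze_conj (ν τ : V n) (j : Fin n) : star (ze ν τ j) = (ν j : ℂ) - Complex.I * τ j := by
  have h1 : star ((ν j : ℝ) : ℂ) = ((ν j : ℝ) : ℂ) := Complex.conj_ofReal _
  have h2 : star ((τ j : ℝ) : ℂ) = ((τ j : ℝ) : ℂ) := Complex.conj_ofReal _
  have h3 : star Complex.I = -Complex.I := Complex.conj_I
  simp only [ze, star_add, star_mul', h1, h2, h3]
  ring

lemma quad_eq {β : Fin n → Fin n → ℝ} (hs : ∀ i j, β i j = β j i)
    (hβ : ∀ i, ∑ j, β i j * ν j = 0) :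
    ∑ i, ∑ j, ((β i j : ℝ) : ℂ) * (ze ν τ i * star (ze ν τ j)) =
      ((∑ i, ∑ j, β i j * (τ i * τ j) : ℝ) : ℂ) := by
  rw [← contr (τ := τ) hs hβ]
  refine Finset.sum_congr rfl fun i _ => Finset.sum_congr rfl fun j _ => ?_
  rw [ze_conj]
  rfl

/-- the identity of order `k + 1`, in the form `q E + 2 i σ θ G = 0` -/
lemma lin_eq {k : ℕ} {c : ℝ} {σp : ℂ} {q E : ℂ} {a : Fin n → Matrix (Fin N) (Fin N) ℂ}
    (hanti : ∀ i, ∀ α β, star (a i β α) = -a i α β)
    (h : q * E + σp * ∑ i, (th k c * ze ν τ i * gq η (a i) +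
      star (th k c * ze ν τ i * gq η (a i))) = 0) :
    q * E + σp * (th k c * (2 * Complex.I)) * ∑ i, ((τ i : ℝ) : ℂ) * gq η (a i) = 0 := by
  have h1 : ∑ i, (th k c * ze ν τ i * gq η (a i) + star (th k c * ze ν τ i * gq η (a i))) =
      th k c * (2 * Complex.I) * ∑ i, ((τ i : ℝ) : ℂ) * gq η (a i) := by
    rw [Finset.mul_sum]
    refine Finset.sum_congr rfl fun i _ => ?_
    rw [star_mul', star_mul', th_real, gq_anti (hanti i)]
    have := ze_sub ν τ i
    linear_combination (th k c * gq η (a i)) * this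
  rw [h1] at h
  rw [mul_assoc]
  exact h

/-- **Row K_BD.** -/
theorem bdK (hCON : LR.K.RowCON) (hEN : LR.K.RowEN) : LR.K.RowBD := by
  intro n N ρ hn hN hρ
  obtain ⟨k₁, ε₁, hε₁, HC⟩ := hCON N ρ hn hρ
  obtain ⟨a₀, C, ha₀, hC, HE⟩ := hEN N ρ hn hρ
  have hn0 : (0 : ℝ) < n := by
    have : 0 < n := by omega
    exact_mod_cast this
  set ε : ℝ := min (min ε₁ a₀) (1 / (8 * n ^ 2 * C)) with hε
  have hεp : 0 < ε := lt_min (lt_min hε₁ ha₀) (by positivity)
  have hεε₁ : ε ≤ ε₁ := (min_le_left _ _).trans (min_le_left _ _)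
  have hεa : ε ≤ a₀ := (min_le_left _ _).trans (min_le_right _ _)
  have hεC : ε ≤ 1 / (8 * n ^ 2 * C) := min_le_right _ _
  refine ⟨k₁, ε, hεp, ?_⟩
  intro σ t A₁ A hσ ht hsym hA₁ hA hSma hDat m b a hb ha hs eb ea hbν haν
  obtain ⟨cσ, ct, cA₁, cA⟩ := hSma
  have val : ∀ {f : V n → ℝ}, Cl k₁ ε f → ∀ x, |f x| ≤ ε := fun hf x => by
    have := hf 0 (Nat.zero_le _) x
    rwa [norm_iteratedFDeriv_zero, Real.norm_eq_abs] at this
  have valC : ∀ {f : V n → ℂ}, Cl k₁ ε f → ∀ x, ‖f x‖ ≤ ε := fun hf x => by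
    have := hf 0 (Nat.zero_le _) x
    rwa [norm_iteratedFDeriv_zero] at this
  let i₀ : Fin n := ⟨0, by omega⟩
  have hσ1 : (fun x => sc σ x i₀ i₀ - dl i₀ i₀) = fun x => σ x - 1 := by
    funext x
    simp [sc, dl]
  have cσ1 : Cl k₁ ε (fun x => σ x - 1) := hσ1 ▸ cσ i₀ i₀
  have hE := HE σ t A₁ A hσ.1 ht hsym hA₁ hA (fun x _ => (val cσ1 x).trans hεa)
    (fun x _ i j => (val (ct i j) x).trans hεa)
    (fun x _ i α β => (valC (cA₁ i α β) x).trans hεa)
    (fun x _ i α β => (valC (cA i α β) x).trans hεa) hDat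
  -- the concentrating solutions
  have HCon : ∀ {p : V n}, ρ p = 0 → ∀ {ν τ : V n}, OT ν τ →
      (∃ c > 0, ∀ i, pd i ρ p = c * ν i) → ∀ (η : Fin N → ℂ) (m : ℕ), ∃ u Z,
      Con ρ Z p m (ze ν τ) η u ∧
      ∀ M, ‖∫ x in Om ρ, LF σ t A₁ A u M x‖ ≤ C * ∫ x in Om ρ, RF ρ σ t A₁ A u M x := by
    intro p hp ν τ hOT hν η m
    obtain ⟨u, hu, hu0, HZ⟩ := HC σ A₁ hσ (fun l hl x => (cσ1 l hl x).trans hεε₁) hA₁
      (fun i α β l hl x => (cA₁ i α β l hl x).trans hεε₁) p hp ν τ hOT hν η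
    obtain ⟨Z, hZ, hlim⟩ := HZ m
    have hcu : ∀ M l, Continuous fun x => u M x l := fun M l =>
      ((contDiff_pi.1 (hu M)) l).continuous
    have hcd : ∀ M i l, Continuous fun x => pd i (u M) x l := fun M i l =>
      ((contDiff_pi.1 (H158.contDiff_pd (hu M) i)) l).continuous
    have hcdd : ∀ M i j l, Continuous fun x => pd i (pd j (u M)) x l := fun M i j l =>
      ((contDiff_pi.1 (H158.contDiff_pd (H158.contDiff_pd (hu M) j) i)) l).continuous
    have hw : Continuous fun x => ((ρ x ^ m : ℝ) : ℂ) :=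
      (ofReal_sm (hρ.sm.pow m)).continuous
    have hst : ∀ {f : V n → ℂ}, Continuous f → Continuous fun x => star (f x) := fun hf =>
      Complex.continuous_conj.comp hf
    refine ⟨u, Z, ⟨hu, fun i j F hF l l' => ⟨fun M => om_int hρ
      ((hw.mul hF.continuous).mul ((hcd M i l).mul (hst (hcd M j l')))), ?_⟩,
      fun i j F hF l l' => ⟨fun M => om_int hρ
      ((hw.mul hF.continuous).mul ((hcdd M i j l).mul (hst (hcu M l')))), ?_⟩,
      fun i F hF l l' => ⟨fun M => om_int hρ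
      ((hw.mul hF.continuous).mul ((hcd M i l).mul (hst (hcu M l')))), ?_⟩,
      fun F hF l l' => ⟨fun M => om_int hρ
      ((hw.mul hF.continuous).mul ((hcu M l).mul (hst (hcu M l')))), ?_⟩⟩, fun M => ?_⟩
    · have h1 := (hlim F hF.continuous.continuousOn l l').1 i j
      rwa [mul_assoc] at h1
    · have h1 := (hlim F hF.continuous.continuousOn l l').2.1 i j
      rwa [mul_assoc] at h1
    · rw [mul_zero]
      exact (hlim F hF.continuous.continuousOn l l').2.2.1 i
    · rw [mul_zero]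
      exact (hlim F hF.continuous.continuousOn l l').2.2.2
    · rw [← ea_diff hρ hσ.1 ht hA₁ hA hu M]
      exact hE (u M) (hu M) (hu0 M)
  -- order `k + 1`
  have stepS : ∀ k, m = k + 1 → ∀ {p : V n}, ρ p = 0 → ∀ {ν τ : V n}, OT ν τ →
      (∃ c > 0, ∀ i, pd i ρ p = c * ν i) → (∀ i, ∑ j, b i j p * ν j = 0) →
      ∀ η : Fin N → ℂ,
      ((∑ i, ∑ j, b i j p * (τ i * τ j) : ℝ) : ℂ) * (η ⬝ᵥ star η) = 0 ∧
        ∑ i, ((τ i : ℝ) : ℂ) * gq η (a i p) = 0 := by
    intro k hk p hp ν τ hOT hν hβ η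
    subst hk
    obtain ⟨c, hc, hcν⟩ := hν
    have hanti : ∀ i, ∀ α β, star (a i p β α) = -a i p α β := by
      intro i α β
      have hcl : IsClosed {x : V n | star (a i x β α) = -a i x α β} :=
        isClosed_eq (Complex.continuous_conj.comp (ha i β α).continuous)
          (ha i α β).continuous.neg
      refine closure_minimal ?_ hcl (mem_closure hρ hp)
      intro x hx
      have hx0 : 0 < ρ x := hx
      have hx' : ((ρ x : ℝ) : ℂ) ≠ 0 := by exact_mod_cast hx0.ne'
      have hxk : ((ρ x ^ (k + 1) : ℝ) : ℂ) ≠ 0 := by exact_mod_cast (pow_pos hx0 _).ne'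
      have e : ∀ α β, ((ρ x : ℝ) : ℂ) * (A i x α β - A₁ i x α β) =
          ((ρ x ^ (k + 1) : ℝ) : ℂ) * a i x α β := by
        intro α β
        have := congrFun (congrFun (ea i x) α) β
        simpa using this
      have r1 : star ((ρ x : ℝ) : ℂ) = ((ρ x : ℝ) : ℂ) := Complex.conj_ofReal _
      have r2 : star ((ρ x ^ (k + 1) : ℝ) : ℂ) = ((ρ x ^ (k + 1) : ℝ) : ℂ) :=
        Complex.conj_ofReal _
      have u1 : star (A i x β α) = -A i x α β := by
        have := congrFun (congrFun (hA.2 i x) α) β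
        simpa using this
      have u2 : star (A₁ i x β α) = -A₁ i x α β := by
        have := congrFun (congrFun (hA₁.2 i x) α) β
        simpa using this
      have e1 := congrArg star (e β α)
      rw [star_mul', star_mul', star_sub, r1, r2, u1, u2] at e1
      have e2 : ((ρ x ^ (k + 1) : ℝ) : ℂ) * (star (a i x β α) + a i x α β) = 0 := by
        linear_combination -e1 - e α β
      have e3 := (mul_eq_zero.1 e2).resolve_left hxk
      show star (a i x β α) = -a i x α β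
      linear_combination e3
    have main : ∀ {τ' : V n}, OT ν τ' →
        ((∑ i, ∑ j, b i j p * (τ' i * τ' j) : ℝ) : ℂ) * (η ⬝ᵥ star η) +
          ((σ p : ℝ) : ℂ) * (th k c * (2 * Complex.I)) *
            ∑ i, ((τ' i : ℝ) : ℂ) * gq η (a i p) = 0 := by
      intro τ' hOT'
      obtain ⟨u, Z, hcon, hen⟩ := HCon hp hOT' ⟨c, hc, hcν⟩ η (k + 1)
      have h1 := keyS hρ hc hOT'.1 hp hcν hcon hσ.1 hA₁ hA hb ha eb ea hen
      rw [quad_eq (fun i j => hs i j p) hβ] at h1
      exact lin_eq hanti h1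
    have m1 := main hOT
    have m2 := main (τ' := fun i => -τ i) ⟨hOT.1, by simpa using hOT.2.1, by
      simpa using hOT.2.2⟩
    have e1 : ∑ i, ∑ j, b i j p * (-τ i * -τ j) = ∑ i, ∑ j, b i j p * (τ i * τ j) :=
      Finset.sum_congr rfl fun i _ => Finset.sum_congr rfl fun j _ => by ring
    have e2 : ∑ i, ((-τ i : ℝ) : ℂ) * gq η (a i p) = -∑ i, ((τ i : ℝ) : ℂ) * gq η (a i p) := by
      rw [← Finset.sum_neg_distrib]
      exact Finset.sum_congr rfl fun i _ => by push_cast; ring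
    rw [e1, e2] at m2
    have hth : ((σ p : ℝ) : ℂ) * (th k c * (2 * Complex.I)) ≠ 0 := by
      have h1 : ((σ p : ℝ) : ℂ) ≠ 0 := by exact_mod_cast (hσ.2 p).ne'
      have h2 : ((k : ℂ) + 1) ≠ 0 := by exact_mod_cast Nat.succ_ne_zero k
      have h3 : (c : ℂ) ≠ 0 := by exact_mod_cast hc.ne'
      have h4 : th k c ≠ 0 := by
        unfold th
        exact mul_ne_zero (neg_ne_zero.2 (inv_ne_zero (mul_ne_zero h2 h3))) two_ne_zero
      exact mul_ne_zero h1 (mul_ne_zero h4 (mul_ne_zero two_ne_zero Complex.I_ne_zero))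
    refine ⟨?_, ?_⟩
    · have : 2 * (((∑ i, ∑ j, b i j p * (τ i * τ j) : ℝ) : ℂ) * (η ⬝ᵥ star η)) = 0 := by
        linear_combination m1 + m2
      exact (mul_eq_zero.1 this).resolve_left two_ne_zero
    · have : (((σ p : ℝ) : ℂ) * (th k c * (2 * Complex.I))) *
          (2 * ∑ i, ((τ i : ℝ) : ℂ) * gq η (a i p)) = 0 := by
        linear_combination m1 - m2
      have h2 := (mul_eq_zero.1 this).resolve_left hth
      exact (mul_eq_zero.1 h2).resolve_left two_ne_zero
  have hE1 : ((fun _ => 1 : Fin N → ℂ) ⬝ᵥ star (fun _ => 1 : Fin N → ℂ)) = (N : ℂ) := by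
    simp [dotProduct]
  have hN0 : (N : ℂ) ≠ 0 := by
    have : N ≠ 0 := by omega
    exact_mod_cast this
  have hN0' : (0 : ℝ) < N := by
    have : 0 < N := by omega
    exact_mod_cast this
  -- `b = 0`
  have hb0 : ∀ x, ρ x = 0 → ∀ i j, b i j x = 0 := by
    refine Vale.Agent.P088.H607.bd_coreX hρ (t := t) (σ := σ) (K := 2 * C) (a := 2 * ε)
      (by positivity) ?_ (fun x _ i j => ?_) ?_ hb hs (fun x i j => eb i j x) hbν
    · have h1 : (n : ℝ) * (n * (2 * C * (2 * ε))) = 4 * n ^ 2 * C * ε := by ring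
      have h2 : 4 * n ^ 2 * C * ε ≤ 4 * n ^ 2 * C * (1 / (8 * n ^ 2 * C)) :=
        mul_le_mul_of_nonneg_left hεC (by positivity)
      have h3 : 4 * (n : ℝ) ^ 2 * C * (1 / (8 * n ^ 2 * C)) = 1 / 2 := by
        field_simp
        norm_num
      rw [h1]
      linarith
    · have h1 := val (ct i j) x
      have h2 := val (cσ i j) x
      have h3 : t x i j - sc σ x i j = (t x i j - dl i j) - (sc σ x i j - dl i j) := by ring
      rw [h3]
      exact (abs_sub _ _).trans (by linarith)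
    · intro p hp ν τ hν1 hτ1 hντ hν hβ
      have hOT : OT ν τ := ⟨hν1, hτ1, hντ⟩
      rcases Nat.eq_zero_or_eq_succ_pred m with hm | hm
      · subst hm
        obtain ⟨u, Z, hcon, hen⟩ := HCon hp hOT hν (fun _ => 1) 0
        have h1 := key0 hρ hp hcon hσ.1 hA₁ hA hb (fun i j x => by
          have := eb i j x
          rwa [pow_zero, one_mul] at this) hen
        rw [quad_eq (fun i j => hs i j p) hβ, hE1] at h1
        have h2 : ∑ j, ze ν τ j * star (ze ν τ j) = 2 := by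
          have e1 : ∀ j, ze ν τ j * star (ze ν τ j) = ((ν j ^ 2 + τ j ^ 2 : ℝ) : ℂ) := by
            intro j
            rw [ze_conj]
            simp only [ze]
            push_cast
            linear_combination (-(τ j : ℂ) ^ 2) * Complex.I_sq
          simp only [e1]
          rw [← Complex.ofReal_sum, Finset.sum_add_distrib, hν1, hτ1]
          norm_num
        rw [h2, norm_mul, norm_mul, norm_mul, Complex.norm_real, Complex.norm_real,
          Complex.norm_natCast, Complex.norm_ofNat, Real.norm_eq_abs, Real.norm_eq_abs] at h1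
        have h3 : 0 ≤ ∑ i, ∑ j, b i j p ^ 2 :=
          Finset.sum_nonneg fun i _ => Finset.sum_nonneg fun j _ => sq_nonneg _
        rw [abs_of_nonneg h3] at h1
        rw [pow_zero, one_mul]
        have h4 : |∑ i, ∑ j, b i j p * (τ i * τ j)| * N ≤
            (2 * C * ∑ i, ∑ j, b i j p ^ 2) * N := by
          refine h1.trans (le_of_eq ?_)
          ring
        exact le_of_mul_le_mul_right h4 hN0'
      · have h1 := (stepS _ hm hp hOT hν hβ (fun _ => 1)).1
        rw [hE1] at h1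
        have h2 := (mul_eq_zero.1 h1).resolve_right hN0
        have h3 : ∑ i, ∑ j, b i j p * (τ i * τ j) = 0 := by exact_mod_cast h2
        rw [h3, abs_zero, hm, hp]
        simp
  intro p hp
  refine ⟨hb0 p hp, ?_⟩
  rcases Nat.eq_zero_or_eq_succ_pred m with hm | hm
  · intro i
    subst hm
    have h1 := ea i p
    rw [hp, pow_zero] at h1
    simpa using h1.symm
  · -- the unit normal
    set g : V n := fun i => pd i ρ p with hg
    set S0 : ℝ := ∑ i, g i ^ 2 with hS0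
    have hS0n : 0 ≤ S0 := Finset.sum_nonneg fun i _ => sq_nonneg _
    have hS0p : 0 < S0 := by
      have := kap_pos hρ p
      rw [hp] at this
      simpa [hS0, hg] using this
    set c : ℝ := √S0 with hc'
    have hc0 : 0 < c := Real.sqrt_pos.2 hS0p
    have hcc : c ^ 2 = S0 := Real.sq_sqrt hS0n
    set ν : V n := fun i => g i / c with hνd
    have hν1 : ∑ i, ν i ^ 2 = 1 := by
      have h : ∑ i, ν i ^ 2 = S0 / c ^ 2 := by
        rw [hS0, Finset.sum_div]
        exact Finset.sum_congr rfl fun i _ => by simp only [hνd]; ring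
      rw [h, hcc, div_self hS0p.ne']
    have hνc : ∃ c > 0, ∀ i, pd i ρ p = c * ν i :=
      ⟨c, hc0, fun i => by simp only [hνd, hg]; field_simp⟩
    refine alg_a hν1 ?_ fun τ hτ1 hντ η =>
      (stepS _ hm hp ⟨hν1, hτ1, hντ⟩ hνc (fun i => by simp [hb0 p hp]) η).2
    have h1 := haν p hp
    have h2 : ∑ i, ((ν i : ℝ) : ℂ) • a i p =
        ((c⁻¹ : ℝ) : ℂ) • ∑ i, ((pd i ρ p : ℝ) : ℂ) • a i p := by
      rw [Finset.smul_sum]
      refine Finset.sum_congr rfl fun i _ => ?_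
      rw [smul_smul, ← Complex.ofReal_mul]
      congr 2
      simp only [hνd, hg]
      rw [div_eq_mul_inv, mul_comm]
    rw [h2, h1, smul_zero]

end row

end Vale.Agent.P088.H607.K
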