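import Vale.Agent.P088.H198.K.Defs
import Vale.Agent.P088.H607.YBd
import Vale.Agent.P088.H158.BMap
import Vale.Agent.P088.H158.CCv

/-!
# P088, theorem JB: limits of quadratic expressions in concentrating solutions
-/

open MeasureTheory Set Filter
open scoped ContDiff Matrix Topology

noncomputable section

namespace Vale.Agent.P088.H607.K

open Vale.Agent.P088.LR Vale.Agent.P088.LR.B Vale.Agent.P088.LR.B.H43 Vale.Agent.P088.LR.U
  Vale.Agent.P088.LR.H158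

variable {n N : ℕ} {ρ : V n → ℝ} {Z : ℕ → ℝ} {p : V n}

/-- limits of integrals over `Ω` -/
def Lm (ρ : V n → ℝ) (Z : ℕ → ℝ) (g : ℕ → V n → ℂ) (L : ℂ) : Prop :=
  (∀ M, IntegrableOn (g M) (Om ρ)) ∧
    Tendsto (fun M => ((Z M : ℝ) : ℂ)⁻¹ * ∫ x in Om ρ, g M x) atTop (𝓝 L)

lemma Lm.congr (hρ : Dom ρ) {g g' : ℕ → V n → ℂ} {L : ℂ} (h : Lm ρ Z g L)
    (he : ∀ M, ∀ x ∈ Om ρ, g M x = g' M x) : Lm ρ Z g' L := by
  have ho : MeasurableSet (Om ρ) := (Vale.Agent.P088.LR.B.H158.isOpen_Om hρ).measurableSet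
  exact ⟨fun M => (h.1 M).congr_fun (fun x hx => he M x hx) ho, h.2.congr fun M => by
    rw [setIntegral_congr_fun ho fun x hx => he M x hx]⟩

lemma Lm.add {g g' : ℕ → V n → ℂ} {L L' : ℂ} (h : Lm ρ Z g L) (h' : Lm ρ Z g' L') :
    Lm ρ Z (fun M x => g M x + g' M x) (L + L') :=
  ⟨fun M => (h.1 M).add (h'.1 M), (h.2.add h'.2).congr fun M => by
    rw [← mul_add, integral_add (h.1 M) (h'.1 M)]⟩

lemma Lm.sum {ι : Type*} [Fintype ι] {g : ι → ℕ → V n → ℂ} {L : ι → ℂ}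
    (h : ∀ i, Lm ρ Z (g i) (L i)) : Lm ρ Z (fun M x => ∑ i, g i M x) (∑ i, L i) :=
  ⟨fun M => integrable_finsetSum _ fun i _ => (h i).1 M,
    (tendsto_finsetSum Finset.univ fun i _ => (h i).2).congr fun M => by
      rw [integral_finsetSum _ fun i _ => (h i).1 M, Finset.mul_sum]⟩

lemma Lm.smul {g : ℕ → V n → ℂ} {L : ℂ} (h : Lm ρ Z g L) (c : ℂ) :
    Lm ρ Z (fun M x => c * g M x) (c * L) :=
  ⟨fun M => (h.1 M).const_mul c, (h.2.const_mul c).congr fun M => by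
    rw [integral_const_mul]; ring⟩

lemma Lm.conj {g : ℕ → V n → ℂ} {L : ℂ} (h : Lm ρ Z g L) :
    Lm ρ Z (fun M x => star (g M x)) (star L) := by
  refine ⟨fun M => (Complex.conjCLE : ℂ →L[ℝ] ℂ).integrable_comp (h.1 M), ?_⟩
  have h1 := (Complex.continuous_conj.tendsto L).comp h.2
  refine h1.congr fun M => ?_
  have h2 : ∫ x in Om ρ, star (g M x) = (starRingEnd ℂ) (∫ x in Om ρ, g M x) := integral_conj
  rw [h2]
  simp only [Function.comp, map_mul, map_inv₀, Complex.conj_ofReal]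

/-- limits of all products `w F P_l conj Q_l'` -/
def BL (ρ : V n → ℝ) (Z : ℕ → ℝ) (p : V n) (w : V n → ℝ) (P Q : ℕ → V n → Fin N → ℂ)
    (β : Fin N → Fin N → ℂ) : Prop :=
  ∀ F : V n → ℂ, ContDiff ℝ ∞ F → ∀ l l', Lm ρ Z
    (fun M x => ((w x : ℝ) : ℂ) * F x * (P M x l * star (Q M x l'))) (F p * β l l')

variable {w : V n → ℝ} {P P' Q : ℕ → V n → Fin N → ℂ} {β β' : Fin N → Fin N → ℂ}

lemma BL.add_l (hρ : Dom ρ) (h : BL ρ Z p w P Q β) (h' : BL ρ Z p w P' Q β') :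
    BL ρ Z p w (fun M x => P M x + P' M x) Q (fun l l' => β l l' + β' l l') := by
  intro F hF l l'
  have h1 := ((h F hF l l').add (h' F hF l l')).congr hρ
    (g' := fun M x => ((w x : ℝ) : ℂ) * F x * ((P M x + P' M x) l * star (Q M x l')))
    (fun M x _ => by simp only [Pi.add_apply]; ring)
  rwa [← mul_add] at h1

lemma BL.mul_l (hρ : Dom ρ) {C : MC n N} (hC : SmC C) (h : BL ρ Z p w P Q β) :
    BL ρ Z p w (fun M x => C x *ᵥ P M x) Q (fun l l' => ∑ k, C p l k * β k l') := by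
  intro F hF l l'
  have h1 := Lm.sum fun k => h (fun x => F x * C x l k) (hF.mul (hC l k)) k l'
  have h2 := h1.congr hρ
    (g' := fun M x => ((w x : ℝ) : ℂ) * F x * ((C x *ᵥ P M x) l * star (Q M x l')))
    (fun M x _ => by
      simp only [Matrix.mulVec, dotProduct, Finset.sum_mul, Finset.mul_sum]
      exact Finset.sum_congr rfl fun k _ => by ring)
  have h3 : ∑ k, F p * C p l k * β k l' = F p * ∑ k, C p l k * β k l' := by
    rw [Finset.mul_sum]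
    exact Finset.sum_congr rfl fun k _ => by ring
  rwa [h3] at h2

lemma BL.swap (hρ : Dom ρ) (h : BL ρ Z p w P Q β) :
    BL ρ Z p w Q P (fun l l' => star (β l' l)) := by
  intro F hF l l'
  have h1 := (h (fun x => star (F x)) (contDiff_star hF) l' l).conj
  have h2 := h1.congr hρ
    (g' := fun M x => ((w x : ℝ) : ℂ) * F x * (Q M x l * star (P M x l')))
    (fun M x _ => by
      have h3 : star ((w x : ℝ) : ℂ) = ((w x : ℝ) : ℂ) := Complex.conj_ofReal _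
      simp only [star_mul', star_star, h3]
      ring)
  rw [star_mul', star_star] at h2
  exact h2

lemma BL.wt (hρ : Dom ρ) {g : V n → ℝ} (hg : ContDiff ℝ ∞ g) (h : BL ρ Z p w P Q β) :
    BL ρ Z p (fun x => w x * g x) P Q (fun l l' => ((g p : ℝ) : ℂ) * β l l') := by
  intro F hF l l'
  have h1 := (h (fun x => F x * ((g x : ℝ) : ℂ))
    (hF.mul (Complex.ofRealCLM.contDiff.comp hg)) l l').congr hρ
    (g' := fun M x => ((w x * g x : ℝ) : ℂ) * F x * (P M x l * star (Q M x l')))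
    (fun M x _ => by push_cast; ring)
  rwa [mul_assoc] at h1

lemma BL.of_eq (h : BL ρ Z p w P Q β) (he : ∀ l l', β l l' = β' l l') :
    BL ρ Z p w P Q β' := fun F hF l l' => by rw [← he]; exact h F hF l l'

lemma BL.dot (hρ : Dom ρ) (h : BL ρ Z p w P Q β) {F : V n → ℂ} (hF : ContDiff ℝ ∞ F) :
    Lm ρ Z (fun M x => ((w x : ℝ) : ℂ) * F x * (P M x ⬝ᵥ star (Q M x))) (F p * ∑ l, β l l) := by
  have h1 := Lm.sum fun l => h F hF l l
  rw [← Finset.mul_sum] at h1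
  refine h1.congr hρ fun M x _ => ?_
  simp only [dotProduct, Pi.star_apply, Finset.mul_sum]

/-- `∂_j` of `ρ^(m+1) W` -/
lemma pd_rho (hρ : Dom ρ) {W : V n → ℂ} (hW : ContDiff ℝ ∞ W) (m : ℕ) (j : Fin n) (x : V n) :
    pd j (fun y => ((ρ y ^ (m + 1) : ℝ) : ℂ) * W y) x =
      ((m : ℂ) + 1) * ((ρ x ^ m : ℝ) : ℂ) * ((pd j ρ x : ℝ) : ℂ) * W x +
        ((ρ x ^ (m + 1) : ℝ) : ℂ) * pd j W x := by
  have h0 : ContDiff ℝ ∞ fun y => ρ y ^ (m + 1) := hρ.sm.pow _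
  have h1 : pd j (fun y => ρ y ^ (m + 1)) x = ((m : ℝ) + 1) * ρ x ^ m * pd j ρ x := by
    have h2 := ((dfa hρ.sm x).hasFDerivAt.pow (m + 1)).fderiv
    have h3 := congrArg (fun L : V n →L[ℝ] ℝ => L (Pi.single j 1)) h2
    refine Eq.trans h3 ?_
    unfold pd
    simp
  have h4 : ContDiff ℝ ∞ fun y => ((ρ y ^ (m + 1) : ℝ) : ℂ) := Complex.ofRealCLM.contDiff.comp h0
  rw [pd_mul (dfa h4 x) (dfa hW x), Vale.Agent.P088.LR.B.H158.pd_cast (dfa h0 x), h1]
  push_cast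
  ring

lemma int_zero (hρ : Dom ρ) {W : V n → ℂ} (hW : ContDiff ℝ ∞ W) (m : ℕ) (j : Fin n) :
    ∫ x in Om ρ, pd j (fun y => ((ρ y ^ (m + 1) : ℝ) : ℂ) * W y) x = 0 := by
  set G : V n → ℂ := fun y => ((ρ y ^ (m + 1) : ℝ) : ℂ) * W y with hG
  have hGs : ContDiff ℝ ∞ G := (Complex.ofRealCLM.contDiff.comp (hρ.sm.pow (m + 1))).mul hW
  have hG0 : ∀ x, ρ x = 0 → G x = 0 := fun x hx => by simp [hG, hx]
  have hi : IntegrableOn (pd j G) (Om ρ) := om_int hρ (pd_cont hGs j)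
  have h1 := integral_re_add_im (μ := volume.restrict (Om ρ)) hi
  rw [← h1]
  have h2 : ∫ x in Om ρ, RCLike.re (pd j G x) = 0 := by
    rw [← Vale.Agent.P088.LR.B.H158.int_pd_zero hρ j (φ := fun y => (G y).re)
      (Complex.reCLM.contDiff.comp hGs) fun x hx => by rw [hG0 x hx]; rfl]
    exact integral_congr_ae (Eventually.of_forall fun x => (pd_reX (dfa hGs x) j).symm)
  have h3 : ∫ x in Om ρ, RCLike.im (pd j G x) = 0 := by
    rw [← Vale.Agent.P088.LR.B.H158.int_pd_zero hρ j (φ := fun y => (G y).im)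
      (Complex.imCLM.contDiff.comp hGs) fun x hx => by rw [hG0 x hx]; rfl]
    exact integral_congr_ae (Eventually.of_forall fun x => (pd_imX (dfa hGs x) j).symm)
  rw [h2, h3]
  simp

/-- `|∇ρ|² + ρ² > 0` everywhere -/
lemma kap_pos (hρ : Dom ρ) (x : V n) : 0 < ∑ j, pd j ρ x ^ 2 + ρ x ^ 2 := by
  have h1 : 0 ≤ ∑ j, pd j ρ x ^ 2 := Finset.sum_nonneg fun j _ => sq_nonneg _
  have h2 : 0 ≤ ρ x ^ 2 := sq_nonneg _
  rcases (add_nonneg h1 h2).eq_or_lt with h | h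
  · exfalso
    have h3 : ∑ j, pd j ρ x ^ 2 = 0 := by linarith
    have h4 : ρ x ^ 2 = 0 := by linarith
    have h5 : ρ x = 0 := pow_eq_zero_iff two_ne_zero |>.1 h4
    refine hρ.nz x h5 ?_
    have hz : ∀ i, pd i ρ x = 0 := fun i =>
      pow_eq_zero_iff two_ne_zero |>.1 ((Finset.sum_eq_zero_iff_of_nonneg fun i _ =>
        sq_nonneg (pd i ρ x)).1 h3 i (Finset.mem_univ i))
    refine ContinuousLinearMap.coe_injective (LinearMap.pi_ext' fun i => LinearMap.ext_ring ?_)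
    have h6 : (fderiv ℝ ρ x) (Pi.single i 1) = 0 := hz i
    simpa using h6
  · exact h

/-- integration by parts in the limit -/
lemma ibpL (hρ : Dom ρ) {c : ℝ} (hc : 0 < c) {ν : V n} (hν1 : ∑ i, ν i ^ 2 = 1)
    (hp : ρ p = 0) (hν : ∀ i, pd i ρ p = c * ν i) (m : ℕ)
    (hP : ∀ M, ContDiff ℝ ∞ (P M)) (hQ : ∀ M, ContDiff ℝ ∞ (Q M))
    {β γ : Fin n → Fin N → Fin N → ℂ}
    (h0 : BL ρ Z p (fun x => ρ x ^ (m + 1)) P Q (fun _ _ => 0))
    (h1 : ∀ j, BL ρ Z p (fun x => ρ x ^ (m + 1)) (fun M => pd j (P M)) Q (β j))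
    (h2 : ∀ j, BL ρ Z p (fun x => ρ x ^ (m + 1)) P (fun M => pd j (Q M)) (γ j)) :
    BL ρ Z p (fun x => ρ x ^ m) P Q
      (fun l l' => -(((m : ℂ) + 1) * c)⁻¹ * ∑ j, (ν j : ℂ) * (β j l l' + γ j l l')) := by
  intro F hF l l'
  have hc' : (c : ℂ) ≠ 0 := by exact_mod_cast hc.ne'
  have hm' : ((m : ℂ) + 1) ≠ 0 := by exact_mod_cast Nat.succ_ne_zero m
  set κ : V n → ℝ := fun x => (∑ j, pd j ρ x ^ 2 + ρ x ^ 2)⁻¹ with hκ
  have hκs : ContDiff ℝ ∞ κ := ContDiff.inv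
    ((ContDiff.sum fun j _ => (H158.contDiff_pd hρ.sm j).pow 2).add (hρ.sm.pow 2))
    fun x => (kap_pos hρ x).ne'
  have hκ1 : ∀ x, κ x * ∑ j, pd j ρ x ^ 2 = 1 - κ x * ρ x ^ 2 := by
    intro x
    have := inv_mul_cancel₀ (kap_pos hρ x).ne'
    simp only [hκ]
    rw [mul_add] at this
    linarith
  have hκp : κ p = (c ^ 2)⁻¹ := by
    simp only [hκ, hν, hp, mul_pow]
    rw [← Finset.mul_sum, hν1]
    simp
  have cK : ContDiff ℝ ∞ fun x => ((κ x : ℝ) : ℂ) := Complex.ofRealCLM.contDiff.comp hκs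
  have cρ : ContDiff ℝ ∞ fun x => ((ρ x : ℝ) : ℂ) := Complex.ofRealCLM.contDiff.comp hρ.sm
  have cd : ∀ j, ContDiff ℝ ∞ fun x => ((pd j ρ x : ℝ) : ℂ) := fun j =>
    Complex.ofRealCLM.contDiff.comp (H158.contDiff_pd hρ.sm j)
  set W : Fin n → V n → ℂ := fun j x => F x * ((κ x : ℝ) : ℂ) * ((pd j ρ x : ℝ) : ℂ) with hW
  have hWs : ∀ j, ContDiff ℝ ∞ (W j) := fun j => (hF.mul cK).mul (cd j)
  have hPl : ∀ M, ContDiff ℝ ∞ fun x => P M x l := fun M => (contDiff_pi.1 (hP M)) l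
  have hQl : ∀ M, ContDiff ℝ ∞ fun x => star (Q M x l') := fun M =>
    contDiff_star ((contDiff_pi.1 (hQ M)) l')
  -- the right side
  have R0 := h0 (fun x => ((m : ℂ) + 1) * (((ρ x : ℝ) : ℂ) * ((κ x : ℝ) : ℂ) * F x))
    (contDiff_const.mul ((cρ.mul cK).mul hF)) l l'
  have R1 := fun j => (h0 (pd j (W j)) (H158.contDiff_pd (hWs j) j) l l').smul (-1)
  have R2 := fun j => (h1 j (W j) (hWs j) l l').smul (-1)
  have R3 := fun j => (h2 j (W j) (hWs j) l l').smul (-1)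
  set RF : ℕ → V n → ℂ := fun M x =>
    ((ρ x ^ (m + 1) : ℝ) : ℂ) * (((m : ℂ) + 1) * (((ρ x : ℝ) : ℂ) * ((κ x : ℝ) : ℂ) * F x)) *
        (P M x l * star (Q M x l')) +
      (∑ j, -1 * (((ρ x ^ (m + 1) : ℝ) : ℂ) * pd j (W j) x * (P M x l * star (Q M x l'))) +
      (∑ j, -1 * (((ρ x ^ (m + 1) : ℝ) : ℂ) * W j x * (pd j (P M) x l * star (Q M x l'))) +
        ∑ j, -1 * (((ρ x ^ (m + 1) : ℝ) : ℂ) * W j x *
          (P M x l * star (pd j (Q M) x l'))))) with hRF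
  have R : Lm ρ Z RF _ := R0.add ((Lm.sum R1).add ((Lm.sum R2).add (Lm.sum R3)))
  have hlim : ((m : ℂ) + 1) * (((ρ p : ℝ) : ℂ) * ((κ p : ℝ) : ℂ) * F p) * 0 +
      (∑ j, -1 * (pd j (W j) p * 0) + (∑ j, -1 * (W j p * β j l l') +
        ∑ j, -1 * (W j p * γ j l l'))) =
      ((m : ℂ) + 1) * (F p * (-(((m : ℂ) + 1) * c)⁻¹ *
        ∑ j, (ν j : ℂ) * (β j l l' + γ j l l'))) := by
    rw [← Finset.sum_add_distrib, mul_zero, zero_add]
    simp only [mul_zero, Finset.sum_const_zero, zero_add]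
    have h3 : ((m : ℂ) + 1) * (F p * (-(((m : ℂ) + 1) * c)⁻¹ *
        ∑ j, (ν j : ℂ) * (β j l l' + γ j l l'))) =
        ∑ j, -(F p * (c : ℂ)⁻¹ * (ν j : ℂ) * (β j l l' + γ j l l')) := by
      rw [Finset.sum_neg_distrib]
      simp only [mul_assoc]
      rw [← Finset.mul_sum, ← Finset.mul_sum]
      field_simp
    rw [h3]
    refine Finset.sum_congr rfl fun j _ => ?_
    simp only [hW, hκp, hν]
    push_cast
    field_simp
    ring
  replace R : Lm ρ Z RF (((m : ℂ) + 1) * (F p * (-(((m : ℂ) + 1) * c)⁻¹ *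
      ∑ j, (ν j : ℂ) * (β j l l' + γ j l l')))) := hlim ▸ R
  -- integration
  have hcont : ∀ M, Continuous fun x => ((ρ x ^ m : ℝ) : ℂ) * F x *
      (P M x l * star (Q M x l')) := fun M =>
    (((Complex.ofRealCLM.contDiff.comp (hρ.sm.pow m)).mul hF).mul
      ((hPl M).mul (hQl M))).continuous
  refine ⟨fun M => om_int hρ (hcont M), ?_⟩
  have R' := R.2.const_mul (((m : ℂ) + 1)⁻¹)
  rw [← mul_assoc (((m : ℂ) + 1)⁻¹), inv_mul_cancel₀ hm', one_mul] at R'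
  refine R'.congr fun M => ?_
  have hGs : ∀ j, ContDiff ℝ ∞ fun x => W j x * (P M x l * star (Q M x l')) := fun j =>
    (hWs j).mul ((hPl M).mul (hQl M))
  have hz := fun j => int_zero hρ (hGs j) m j
  have hint : ∀ j, IntegrableOn (pd j (fun y => ((ρ y ^ (m + 1) : ℝ) : ℂ) *
      (W j y * (P M y l * star (Q M y l'))))) (Om ρ) := fun j =>
    om_int hρ (pd_cont ((Complex.ofRealCLM.contDiff.comp (hρ.sm.pow (m + 1))).mul (hGs j)) j)
  have hsum : ∫ x in Om ρ, ∑ j, pd j (fun y => ((ρ y ^ (m + 1) : ℝ) : ℂ) *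
      (W j y * (P M y l * star (Q M y l')))) x = 0 := by
    rw [integral_finsetSum _ fun j _ => hint j]
    exact Finset.sum_eq_zero fun j _ => hz j
  have hpt : ∀ x, ((m : ℂ) + 1) * (((ρ x ^ m : ℝ) : ℂ) * F x * (P M x l * star (Q M x l'))) =
      RF M x + ∑ j, pd j (fun y => ((ρ y ^ (m + 1) : ℝ) : ℂ) *
        (W j y * (P M y l * star (Q M y l')))) x := by
    intro x
    have h3 : ∀ j, pd j (fun y => ((ρ y ^ (m + 1) : ℝ) : ℂ) *
        (W j y * (P M y l * star (Q M y l')))) x =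
        ((m : ℂ) + 1) * ((ρ x ^ m : ℝ) : ℂ) * ((pd j ρ x : ℝ) : ℂ) *
          (W j x * (P M x l * star (Q M x l'))) +
        ((ρ x ^ (m + 1) : ℝ) : ℂ) * (pd j (W j) x * (P M x l * star (Q M x l')) +
          W j x * (pd j (P M) x l * star (Q M x l') +
            P M x l * star (pd j (Q M) x l'))) := by
      intro j
      rw [pd_rho hρ (hGs j), pd_mul (dfa (hWs j) x) (dfa ((hPl M).mul (hQl M)) x),
        pd_mul (dfa (hPl M) x) (dfa (hQl M) x), pd_star (dfa ((contDiff_pi.1 (hQ M)) l') x),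
        ← pd_pi (dfa (hP M) x), ← pd_pi (dfa (hQ M) x)]
    rw [Finset.sum_congr rfl fun j _ => h3 j]
    have h4 : ∑ j, ((pd j ρ x : ℝ) : ℂ) * W j x = F x * (1 - ((κ x : ℝ) : ℂ) * ((ρ x : ℝ) : ℂ) ^ 2) := by
      have h5 := congrArg (fun r : ℝ => (r : ℂ)) (hκ1 x)
      push_cast at h5
      rw [← h5, Finset.mul_sum, Finset.mul_sum]
      exact Finset.sum_congr rfl fun j _ => by simp only [hW]; ring
    have h6 : ∑ j, (((m : ℂ) + 1) * ((ρ x ^ m : ℝ) : ℂ) * ((pd j ρ x : ℝ) : ℂ) *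
        (W j x * (P M x l * star (Q M x l')))) =
        ((m : ℂ) + 1) * ((ρ x ^ m : ℝ) : ℂ) * (P M x l * star (Q M x l')) *
          ∑ j, ((pd j ρ x : ℝ) : ℂ) * W j x := by
      rw [Finset.mul_sum]
      exact Finset.sum_congr rfl fun j _ => by ring
    rw [Finset.sum_add_distrib, h6, h4]
    simp only [hRF]
    have h7 : ∑ j, -1 * (((ρ x ^ (m + 1) : ℝ) : ℂ) * pd j (W j) x *
        (P M x l * star (Q M x l'))) +
        (∑ j, -1 * (((ρ x ^ (m + 1) : ℝ) : ℂ) * W j x * (pd j (P M) x l * star (Q M x l'))) +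
        ∑ j, -1 * (((ρ x ^ (m + 1) : ℝ) : ℂ) * W j x *
          (P M x l * star (pd j (Q M) x l')))) =
        -∑ j, ((ρ x ^ (m + 1) : ℝ) : ℂ) * (pd j (W j) x * (P M x l * star (Q M x l')) +
          W j x * (pd j (P M) x l * star (Q M x l') +
            P M x l * star (pd j (Q M) x l'))) := by
      rw [← Finset.sum_add_distrib, ← Finset.sum_add_distrib, ← Finset.sum_neg_distrib]
      exact Finset.sum_congr rfl fun j _ => by ring
    rw [h7]
    push_cast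
    ring
  have e1 : ((m : ℂ) + 1) * ∫ x in Om ρ, ((ρ x ^ m : ℝ) : ℂ) * F x *
      (P M x l * star (Q M x l')) = ∫ x in Om ρ, RF M x := by
    rw [← integral_const_mul]
    exact (integral_congr_ae (Eventually.of_forall hpt)).trans
      ((integral_add (R.1 M) (integrable_finsetSum _ fun j _ => hint j)).trans
        (by rw [hsum, add_zero]))
  rw [← e1, mul_left_comm, ← mul_assoc (((m : ℂ) + 1)⁻¹), inv_mul_cancel₀ hm', one_mul]

end Vale.Agent.P088.H607.K
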